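import Vale.Agent.P331.H250.Ker
import Vale.Agent.P331.H379.JLabel

/-!
# The exchange step

`V` is a thinning of the ground set `A` with rate `p`, `H` a thinning of the sample `A \ V` with
rate `γ`, `R = (A \ V) \ H`.  On an event `Ev V H` there is a set `K ⊆ V` in the up-set `F R`.
The set `U ⊆ K` given by `J*` is small up to probability `lam ^ (-(k + 1))`, and `H ∪ U`, `R` have
at most the natural law of `H`, `R`.
-/

set_option autoImplicit false
set_option linter.unusedSectionVars false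

namespace Vale.Agent.P331.H888

open Finset Vale.Agent.P331.H489 Vale.Agent.P331.H250 Vale.Agent.P331.H379
open scoped Classical

section

variable {E : Type*} [Fintype E] [DecidableEq E]

theorem bw2_nonneg {a b : E → ℝ} (ha : ∀ e, 0 ≤ a e) (hb : ∀ e, 0 ≤ b e)
    (hab : ∀ e, a e + b e ≤ 1) (S : Finset E) (e : E) (l : Option Bool) : 0 ≤ bw2 a b S e l := by
  unfold bw2
  have h1 := ha e
  have h2 := hb e
  have h3 := hab e
  split_ifs <;> linarith

theorem bw2_sum (a b : E → ℝ) (S : Finset E) (e : E) : ∑ l, bw2 a b S e l = 1 := by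
  rw [Fintype.sum_option, Fintype.sum_bool]
  by_cases h : e ∈ S
  · simp [bw2, h]
  · simp [bw2, h]

/-- a set of labels on the support of the weights -/
theorem supp_bw2 {a b : E → ℝ} {A : Finset E} {ω : E → Option Bool}
    (h : ∀ e, bw2 a b A e (ω e) ≠ 0) :
    lset (some true) ω ⊆ A ∧ lset (some false) ω ⊆ A \ lset (some true) ω := by
  have h1 : ∀ e, ω e ≠ none → e ∈ A := by
    intro e he
    by_contra hA
    apply h e
    unfold bw2
    rw [if_neg hA, if_neg he]
  constructor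
  · intro e he
    rw [mem_lset] at he
    exact h1 e (by rw [he]; simp)
  · intro e he
    rw [mem_lset] at he
    rw [mem_sdiff, mem_lset]
    exact ⟨h1 e (by rw [he]; simp), by rw [he]; simp⟩

/-- **The exchange step.** -/
theorem jstar_step {p γ lam : ℝ} (hp0 : 0 ≤ p) (hγ0 : 0 ≤ γ) (hγ1 : γ ≤ 1) (hp1 : p ≤ 1)
    (hlam : 1 ≤ lam) (hl : lam * p ≤ (1 - p) * γ) (A : Finset E)
    (F : Finset E → Finset E → Prop) (hF : ∀ R X Y, X ⊆ Y → F R X → F R Y)
    (Ψ : Finset E → Finset E → Prop) (k : ℕ) (Ev : Finset E → Finset E → Prop)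
    (hEv : ∀ V ⊆ A, ∀ H ⊆ A \ V, Ev V H → ∃ K ⊆ V, F ((A \ V) \ H) K ∧
      ∀ U ⊆ K, U.card ≤ k → F ((A \ V) \ H) (H ∪ U) → Ψ ((A \ V) \ H) (H ∪ U)) :
    TH (fun _ => p) A (fun V => TH (fun _ => γ) (A \ V) (fun H => if Ev V H then 1 else 0)) ≤
      (1 / lam) ^ (k + 1) + TH (fun _ => p) A (fun V => TH (fun _ => γ) (A \ V)
        (fun H => if F ((A \ V) \ H) H ∧ Ψ ((A \ V) \ H) H then 1 else 0)) := by
  have hb : (0 : ℝ) ≤ (1 - p) * γ := mul_nonneg (by linarith) hγ0
  have hab : p + (1 - p) * γ ≤ 1 := by nlinarith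
  set w : E → Option Bool → ℝ := bw2 (fun _ => p) (fun _ => (1 - p) * γ) A with hw
  have hw0 : ∀ e l, 0 ≤ w e l := bw2_nonneg (fun _ => hp0) (fun _ => hb) (fun _ => hab) A
  have hw1 : ∀ e, ∑ l, w e l = 1 := bw2_sum _ _ A
  have hwl : ∀ e, lam * w e (some true) ≤ w e (some false) := by
    intro e
    by_cases he : e ∈ A
    · simp only [hw, bw2, he, if_true]
      simpa using hl
    · simp [hw, bw2, he]
  rw [TH_TH (fun _ => p) (fun _ => γ) A (fun V H => if Ev V H then 1 else 0),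
    TH_TH (fun _ => p) (fun _ => γ) A
      (fun V H => if F ((A \ V) \ H) H ∧ Ψ ((A \ V) \ H) H then 1 else 0)]
  unfold T2
  change EX w _ ≤ _ + EX w _
  let V : (E → Option Bool) → Finset E := fun ω => lset (some true) ω
  let H : (E → Option Bool) → Finset E := fun ω => lset (some false) ω
  let R : (E → Option Bool) → Finset E := fun ω => (A \ V ω) \ H ω
  obtain ⟨Ev', hEv'⟩ : ∃ P : (E → Option Bool) → Prop,
      ∀ ω, P ω ↔ (Ev (V ω) (H ω) ∧ V ω ⊆ A ∧ H ω ⊆ A \ V ω) := ⟨_, fun _ => Iff.rfl⟩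
  have hK : ∀ ω, ∃ K, Ev' ω → K ⊆ V ω ∧ F (R ω) K ∧
      ∀ U ⊆ K, U.card ≤ k → F (R ω) (H ω ∪ U) → Ψ (R ω) (H ω ∪ U) := by
    intro ω
    by_cases h : Ev' ω
    · obtain ⟨g1, g2, g3⟩ := (hEv' ω).1 h
      obtain ⟨K, h1, h2, h3⟩ := hEv (V ω) g2 (H ω) g3 g1
      exact ⟨K, fun _ => ⟨h1, h2, h3⟩⟩
    · exact ⟨∅, fun h' => absurd h' h⟩
  choose K hK using hK
  have hR : ∀ ω ω', Sim (some true) (some false) ω ω' → R ω = R ω' := by
    intro ω ω' hs
    ext e
    simp only [R, V, H, mem_sdiff, mem_lset]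
    rcases hs e with h1 | ⟨h1 | h1, h2 | h2⟩ <;> simp [h1] <;> simp [h2]
  obtain ⟨U, hU, hdom, hcard⟩ := jstar_label' (some true) (some false) (by simp) w hw0 lam hlam
    hwl (fun ω X => F (R ω) X) (fun ω X Y hXY h => hF _ X Y hXY h)
    (fun ω ω' hs X h => by rw [← hR ω ω' hs]; exact h) Ev' K
    (fun ω h => ⟨fun e he => mem_lset.1 ((hK ω h).1 he), (hK ω h).2.1⟩)
  have hlab : ∀ ω : E → Option Bool, lab (some false) ω = H ω := fun ω => by
    ext e; simp [H, mem_lset]
  have hHf : ∀ ω, H (H379.flip (some false) (U ω) ω) = H ω ∪ U ω := by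
    intro ω
    rw [← hlab, ← hlab, lab_flip]
  have h1 : EX w (fun ω => if Ev (V ω) (H ω) then 1 else 0) ≤
      EX w (fun ω => (if Ev' ω ∧ k + 1 ≤ (U ω).card then 1 else 0) +
        (if Ev' ω then (if Ψ (R (H379.flip (some false) (U ω) ω))
          (H (H379.flip (some false) (U ω) ω)) then (1 : ℝ) else 0) else 0)) := by
    refine EX_mono_supp hw0 fun ω hω => ?_
    obtain ⟨h2, h3⟩ := supp_bw2 hω
    by_cases hE : Ev (V ω) (H ω)
    · have hE' : Ev' ω := (hEv' ω).2 ⟨hE, h2, h3⟩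
      rw [if_pos hE]
      by_cases hc : k + 1 ≤ (U ω).card
      · rw [if_pos ⟨hE', hc⟩]
        have : (0 : ℝ) ≤ if Ev' ω then (if Ψ (R (H379.flip (some false) (U ω) ω))
          (H (H379.flip (some false) (U ω) ω)) then (1 : ℝ) else 0) else 0 := by
          split_ifs <;> norm_num
        linarith
      · have h4 := hU ω hE'
        have h5 : F (R ω) (H ω ∪ U ω) := by rw [← hlab]; exact h4.2
        have h6 := (hK ω hE').2.2 (U ω) h4.1 (by omega) h5
        have h7 : R (H379.flip (some false) (U ω) ω) = R ω :=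
          hR _ _ (sim_symm (sim_flip fun e he => mem_lset.1 ((hK ω hE').1 (h4.1 he))))
        rw [if_neg (fun h => hc h.2), if_pos hE', h7, hHf, if_pos h6]
        norm_num
    · rw [if_neg hE]
      split_ifs <;> norm_num
  refine h1.trans ?_
  rw [EX_add]
  refine add_le_add ?_ ?_
  · have h2 := hcard (k + 1) hw1
    have hl0 : 0 < lam ^ (k + 1) := pow_pos (by linarith) _
    rw [one_div, inv_pow, ← one_div, le_div_iff₀ hl0]
    rw [mul_comm]
    exact h2
  · have h2 := hdom (fun ω => if Ψ (R ω) (H ω) then 1 else 0)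
      (fun ω => by split_ifs <;> norm_num)
    refine h2.trans (le_of_eq ?_)
    congr 1
    funext ω
    rw [hlab]
    change (if F (R ω) (H ω) then (if Ψ (R ω) (H ω) then (1 : ℝ) else 0) else 0) =
      if F (R ω) (H ω) ∧ Ψ (R ω) (H ω) then 1 else 0
    by_cases h3 : F (R ω) (H ω)
    · by_cases h4 : Ψ (R ω) (H ω)
      · rw [if_pos h3, if_pos h4, if_pos ⟨h3, h4⟩]
      · rw [if_pos h3, if_neg h4, if_neg (fun h => h4 h.2)]
    · rw [if_neg h3, if_neg (fun h => h3 h.1)]

end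

end Vale.Agent.P331.H888
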