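import Vale.Agent.P331.H888.JStep
import Vale.Agent.P331.H619.Transfer

/-!
# The luck step

Assembly of the transfer to `S \ H`, of the exchange step and of the recycling of the old pool.
-/

set_option autoImplicit false
set_option linter.unusedSectionVars false

namespace Vale.Agent.P331.H888

open Finset Vale.Agent.P331.H489 Vale.Agent.P331.H250 Vale.Agent.P331.H619

section

variable {E : Type*} [Fintype E] [DecidableEq E]

/-- the probability that `X` and a random part of `R` are not in `D` -/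
noncomputable def mis (D : Finset E → Prop) (ρ : ℝ) (R X : Finset E) : ℝ :=
  TH (fun _ => ρ) R fun N => ic (¬ D (X ∪ N))

/-- `jstar_step` with indicators -/
theorem jstar_ic {p γ lam : ℝ} (hp0 : 0 ≤ p) (hγ0 : 0 ≤ γ) (hγ1 : γ ≤ 1) (hp1 : p ≤ 1)
    (hlam : 1 ≤ lam) (hl : lam * p ≤ (1 - p) * γ) (A : Finset E)
    (F : Finset E → Finset E → Prop) (hF : ∀ R X Y, X ⊆ Y → F R X → F R Y)
    (Ψ : Finset E → Finset E → Prop) (k : ℕ) (Ev : Finset E → Finset E → Prop)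
    (hEv : ∀ V ⊆ A, ∀ H ⊆ A \ V, Ev V H → ∃ K ⊆ V, F ((A \ V) \ H) K ∧
      ∀ U ⊆ K, U.card ≤ k → F ((A \ V) \ H) (H ∪ U) → Ψ ((A \ V) \ H) (H ∪ U)) :
    TH (fun _ => p) A (fun V => TH (fun _ => γ) (A \ V) (fun H => ic (Ev V H))) ≤
      (1 / lam) ^ (k + 1) + TH (fun _ => p) A (fun V => TH (fun _ => γ) (A \ V)
        (fun H => ic (F ((A \ V) \ H) H ∧ Ψ ((A \ V) \ H) H))) := by
  have h := jstar_step hp0 hγ0 hγ1 hp1 hlam hl A F hF Ψ k Ev hEv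
  have e1 : ∀ P Q : Prop, (@ite ℝ (P ∧ Q) (@instDecidableAnd P Q (Classical.propDecidable P)
      (Classical.propDecidable Q)) 1 0) = ic (P ∧ Q) := by
    intro P Q
    by_cases hPQ : P ∧ Q
    · rw [if_pos hPQ, ic_true hPQ]
    · rw [if_neg hPQ, ic_false hPQ]
  simp only [e1] at h
  exact h

/-- **The luck step.** `t` : failure at the upper level, `s` : failure at the lower level -/
theorem luck (D : Finset E → Prop) (A : Finset E) {p γ ν lam t t' s τ τ' a β : ℝ} {κ κ' : ℕ}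
    (hp0 : 0 ≤ p) (hp1 : p ≤ 1) (hγ0 : 0 ≤ γ) (hγ : 2 * γ < 1) (hγν : γ ≤ ν)
    (hν : ν ≤ 1 - 2 * γ) (hlam : 1 ≤ lam) (hl : lam * p ≤ (1 - p) * γ)
    (ht : 0 ≤ t) (ht' : 0 < t') (ha : 0 < a) (hs : 3 * a ≤ s)
    (hτ : (τ + t / t') / a ≤ τ' / 4)
    (hQ : TH (fun _ => p) A (fun V => TH (fun _ => γ) (A \ V) (fun H =>
      TH (fun _ => γ / (1 - γ)) ((A \ V) \ H) (fun G =>
        ic ((∃ Y, Y ⊆ H ∧ Y.card ≤ κ ∧
          mis D (ν / (1 - 2 * γ)) (((A \ V) \ H) \ G) (Y ∪ G) ≤ t') ∧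
          a < mis D ((ν - γ) / (1 - 2 * γ)) (((A \ V) \ H) \ G) (H ∪ G))))) ≤ β) :
    τ' / 4 * TH (fun _ => p) A (fun V => ic (∃ K, K ⊆ V ∧
      TH (fun _ => γ) (A \ V) (fun G => ic (¬ ∃ Y, Y ⊆ K ∧ Y.card ≤ κ ∧
        mis D (ν / (1 - γ)) ((A \ V) \ G) (Y ∪ G) ≤ t)) ≤ τ ∧
      τ' / 2 ≤ TH (fun _ => γ) (A \ V) (fun G => ic (¬ ∃ Y, Y ⊆ K ∧ Y.card ≤ κ' ∧
        mis D (ν / (1 - γ)) ((A \ V) \ G) (Y ∪ G) ≤ s)))) ≤
      (1 / lam) ^ (κ' + 1) + β / a := by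
  classical
  have g1 : 0 < 1 - γ := by linarith
  have g2 : 0 < 1 - 2 * γ := by linarith
  have hν0 : 0 ≤ ν := hγ0.trans hγν
  have hγ1 : γ ≤ 1 := by linarith
  have P0 : ∀ e : E, 0 ≤ (fun _ : E => p) e := fun _ => hp0
  have P1 : ∀ e : E, (fun _ : E => p) e ≤ 1 := fun _ => hp1
  have r0 : ∀ e : E, 0 ≤ (fun _ : E => γ) e := fun _ => hγ0
  have r1 : ∀ e : E, (fun _ : E => γ) e ≤ 1 := fun _ => hγ1
  have q0 : ∀ e : E, 0 ≤ (fun _ : E => γ / (1 - γ)) e := fun _ => div_nonneg hγ0 g1.le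
  have q1 : ∀ e : E, (fun _ : E => γ / (1 - γ)) e ≤ 1 := fun _ => by
    show γ / (1 - γ) ≤ 1
    rw [div_le_one g1]
    linarith
  have n0 : ∀ e : E, 0 ≤ (fun _ : E => ν / (1 - 2 * γ)) e := fun _ => div_nonneg hν0 g2.le
  have n1 : ∀ e : E, (fun _ : E => ν / (1 - 2 * γ)) e ≤ 1 := fun _ => by
    show ν / (1 - 2 * γ) ≤ 1
    rw [div_le_one g2]
    exact hν
  have m0 : ∀ e : E, 0 ≤ (fun _ : E => (ν - γ) / (1 - 2 * γ)) e := fun _ =>
    div_nonneg (by linarith) g2.le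
  have m1 : ∀ e : E, (fun _ : E => (ν - γ) / (1 - 2 * γ)) e ≤ 1 := fun _ => by
    show (ν - γ) / (1 - 2 * γ) ≤ 1
    rw [div_le_one g2]
    linarith
  -- the up-set
  set F : Finset E → Finset E → Prop := fun R X => 1 - a ≤
    TH (fun _ => γ / (1 - γ)) R (fun G => ic (∃ Y, (Y ⊆ X ∧ Y.card ≤ κ) ∧
      mis D (ν / (1 - 2 * γ)) (R \ G) (Y ∪ G) ≤ t')) with hFdef
  have hF : ∀ R X Y, X ⊆ Y → F R X → F R Y := by
    intro R X Y hXY h
    refine le_trans h (TH_mono q0 q1 _ fun G _ => ic_mono ?_)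
    rintro ⟨Z, ⟨h1, h2⟩, h3⟩
    exact ⟨Z, ⟨h1.trans hXY, h2⟩, h3⟩
  set Ψ : Finset E → Finset E → Prop := fun R X => s < mis D (ν / (1 - γ)) R X with hΨdef
  -- the event
  set B : Finset E → Finset E → Prop := fun V K => K ⊆ V ∧
      TH (fun _ => γ) (A \ V) (fun G => ic (¬ ∃ Y, Y ⊆ K ∧ Y.card ≤ κ ∧
        mis D (ν / (1 - γ)) ((A \ V) \ G) (Y ∪ G) ≤ t)) ≤ τ ∧
      τ' / 2 ≤ TH (fun _ => γ) (A \ V) (fun G => ic (¬ ∃ Y, Y ⊆ K ∧ Y.card ≤ κ' ∧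
        mis D (ν / (1 - γ)) ((A \ V) \ G) (Y ∪ G) ≤ s)) with hBdef
  have hKex : ∀ V, ∃ K, (∃ K, B V K) → B V K := by
    intro V
    by_cases h : ∃ K, B V K
    · obtain ⟨K, hK⟩ := h
      exact ⟨K, fun _ => hK⟩
    · exact ⟨∅, fun h' => absurd h' h⟩
  choose K hK using hKex
  set Ev : Finset E → Finset E → Prop := fun V H => (∃ K, B V K) ∧
    (¬ ∃ Y, Y ⊆ K V ∧ Y.card ≤ κ' ∧ mis D (ν / (1 - γ)) ((A \ V) \ H) (Y ∪ H) ≤ s) ∧
    F ((A \ V) \ H) (K V) with hEvdef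
  -- step 1: lower bound
  have s1 : τ' / 4 * TH (fun _ => p) A (fun V => ic (∃ K, B V K)) ≤
      TH (fun _ => p) A (fun V => TH (fun _ => γ) (A \ V) (fun H => ic (Ev V H))) := by
    rw [← TH_mul]
    refine TH_mono P0 P1 A fun V _ => ?_
    by_cases hV : ∃ K, B V K
    · obtain ⟨b1, b2, b3⟩ := hK V hV
      rw [ic_true hV, mul_one]
      have tr := transfer (A \ V) hγ0 hγ hν0 hν (fun Y G N => ic (¬ D (Y ∪ G ∪ N)))
        (fun _ _ _ => ic_nonneg _) (fun Y => Y ⊆ K V ∧ Y.card ≤ κ)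
        (fun G => ∃ Y, Y ⊆ K V ∧ Y.card ≤ κ ∧
          mis D (ν / (1 - γ)) ((A \ V) \ G) (Y ∪ G) ≤ t) ht ht' ha
        (fun G _ hG => by
          obtain ⟨Y, h1, h2, h3⟩ := hG
          exact ⟨Y, ⟨h1, h2⟩, h3⟩) b2
      have tr' : TH (fun _ => γ) (A \ V) (fun H => ic (¬ F ((A \ V) \ H) (K V))) ≤ τ' / 4 :=
        tr.trans hτ
      have key : ∀ H, ic (¬ ∃ Y, Y ⊆ K V ∧ Y.card ≤ κ' ∧
          mis D (ν / (1 - γ)) ((A \ V) \ H) (Y ∪ H) ≤ s) ≤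
          ic (Ev V H) + ic (¬ F ((A \ V) \ H) (K V)) := by
        intro H
        by_cases h1 : ¬ ∃ Y, Y ⊆ K V ∧ Y.card ≤ κ' ∧
          mis D (ν / (1 - γ)) ((A \ V) \ H) (Y ∪ H) ≤ s
        · by_cases h2 : F ((A \ V) \ H) (K V)
          · rw [ic_true h1, ic_true (show Ev V H from ⟨hV, h1, h2⟩)]
            have := ic_nonneg (¬ F ((A \ V) \ H) (K V))
            linarith
          · rw [ic_true h1, ic_true h2]
            have := ic_nonneg (Ev V H)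
            linarith
        · rw [ic_false h1]
          have := ic_nonneg (Ev V H)
          have := ic_nonneg (¬ F ((A \ V) \ H) (K V))
          linarith
      have h3 := TH_mono r0 r1 (A \ V) (fun H _ => key H)
      rw [TH_add] at h3
      linarith
    · rw [ic_false hV, mul_zero]
      exact TH_nonneg r0 r1 _ fun _ _ => ic_nonneg _
  -- step 2: exchange
  have s2 := jstar_ic hp0 hγ0 hγ1 hp1 hlam hl A F hF Ψ κ' Ev (fun V hV H hH he => by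
    obtain ⟨h1, h2, h3⟩ := he
    refine ⟨K V, (hK V h1).1, h3, fun U hU hUc _ => ?_⟩
    by_contra hc
    apply h2
    refine ⟨U, hU, hUc, ?_⟩
    rw [union_comm]
    exact not_lt.1 hc)
  -- step 3: natural sets
  have s3 : ∀ R H : Finset E, a * ic (F R H ∧ Ψ R H) ≤ TH (fun _ => γ / (1 - γ)) R (fun G =>
        ic ((∃ Y, Y ⊆ H ∧ Y.card ≤ κ ∧ mis D (ν / (1 - 2 * γ)) (R \ G) (Y ∪ G) ≤ t') ∧
          a < mis D ((ν - γ) / (1 - 2 * γ)) (R \ G) (H ∪ G))) := by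
    intro R H
    by_cases h : F R H ∧ Ψ R H
    · rw [ic_true h, mul_one]
      obtain ⟨h1, h2⟩ := h
      have id1 : γ / (1 - γ) + (1 - γ / (1 - γ)) * ((ν - γ) / (1 - 2 * γ)) = ν / (1 - γ) := by
        have e1 : 1 - γ / (1 - γ) = (1 - 2 * γ) / (1 - γ) := by
          rw [eq_div_iff g1.ne', sub_mul, one_mul, div_mul_cancel₀ _ g1.ne']
          ring
        rw [e1, div_mul_div_comm, mul_comm (1 - γ), mul_div_mul_left _ _ g2.ne', ← add_div]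
        congr 1
        ring
      have u1 : TH (fun _ => γ / (1 - γ)) R (fun G =>
          mis D ((ν - γ) / (1 - 2 * γ)) (R \ G) (H ∪ G)) = mis D (ν / (1 - γ)) R H := by
        unfold mis
        have := TH_TH_union (fun _ => γ / (1 - γ)) (fun _ => (ν - γ) / (1 - 2 * γ))
          (fun _ => ν / (1 - γ)) R (fun _ _ => id1) (fun N => ic (¬ D (H ∪ N)))
        rw [← this]
        refine TH_congr (fun _ _ => rfl) fun G _ => TH_congr (fun _ _ => rfl) fun N _ => ?_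
        rw [union_assoc]
      have key : ∀ G, mis D ((ν - γ) / (1 - 2 * γ)) (R \ G) (H ∪ G) ≤
          (1 - ic (∃ Y, (Y ⊆ H ∧ Y.card ≤ κ) ∧
            mis D (ν / (1 - 2 * γ)) (R \ G) (Y ∪ G) ≤ t')) + a +
          ic ((∃ Y, Y ⊆ H ∧ Y.card ≤ κ ∧ mis D (ν / (1 - 2 * γ)) (R \ G) (Y ∪ G) ≤ t') ∧
          a < mis D ((ν - γ) / (1 - 2 * γ)) (R \ G) (H ∪ G)) := by
        intro G
        have hm1 : mis D ((ν - γ) / (1 - 2 * γ)) (R \ G) (H ∪ G) ≤ 1 := by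
          unfold mis
          exact (TH_mono m0 m1 _ fun _ _ => ic_le_one _).trans_eq (TH_const _ _ 1)
        by_cases h3 : ∃ Y, (Y ⊆ H ∧ Y.card ≤ κ) ∧
            mis D (ν / (1 - 2 * γ)) (R \ G) (Y ∪ G) ≤ t'
        · rw [ic_true h3]
          by_cases h4 : a < mis D ((ν - γ) / (1 - 2 * γ)) (R \ G) (H ∪ G)
          · obtain ⟨Y, ⟨c1, c2⟩, c3⟩ := h3
            rw [ic_true (⟨⟨Y, c1, c2, c3⟩, h4⟩ : (∃ Y, Y ⊆ H ∧ Y.card ≤ κ ∧
              mis D (ν / (1 - 2 * γ)) (R \ G) (Y ∪ G) ≤ t') ∧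
              a < mis D ((ν - γ) / (1 - 2 * γ)) (R \ G) (H ∪ G))]
            linarith
          · have := not_lt.1 h4
            have := ic_nonneg ((∃ Y, Y ⊆ H ∧ Y.card ≤ κ ∧
              mis D (ν / (1 - 2 * γ)) (R \ G) (Y ∪ G) ≤ t') ∧
              a < mis D ((ν - γ) / (1 - 2 * γ)) (R \ G) (H ∪ G))
            linarith
        · rw [ic_false h3]
          have := ic_nonneg ((∃ Y, Y ⊆ H ∧ Y.card ≤ κ ∧
              mis D (ν / (1 - 2 * γ)) (R \ G) (Y ∪ G) ≤ t') ∧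
              a < mis D ((ν - γ) / (1 - 2 * γ)) (R \ G) (H ∪ G))
          linarith
      have h5 := TH_mono q0 q1 R (fun G _ => key G)
      rw [u1, TH_add, TH_add, TH_sub, TH_const, TH_const] at h5
      have h1' : 1 - a ≤ TH (fun _ => γ / (1 - γ)) R (fun G => ic (∃ Y, (Y ⊆ H ∧ Y.card ≤ κ) ∧
        mis D (ν / (1 - 2 * γ)) (R \ G) (Y ∪ G) ≤ t')) := h1
      have h2' : s < mis D (ν / (1 - γ)) R H := h2
      linarith
    · rw [ic_false h, mul_zero]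
      exact TH_nonneg q0 q1 _ fun _ _ => ic_nonneg _
  have s4 : TH (fun _ => p) A (fun V => TH (fun _ => γ) (A \ V)
        (fun H => ic (F ((A \ V) \ H) H ∧ Ψ ((A \ V) \ H) H))) ≤ β / a := by
    rw [le_div_iff₀ ha, mul_comm, ← TH_mul]
    refine le_trans (TH_mono P0 P1 A fun V _ => ?_) hQ
    rw [← TH_mul]
    exact TH_mono r0 r1 _ fun H _ => s3 _ _
  exact s1.trans (s2.trans (add_le_add le_rfl s4))

end

end Vale.Agent.P331.H888
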