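import Vale.Agent.P331.H316.Rows
import Vale.Agent.P331.H619.Transfer

/-!
# Row MK: passing to a subpool
-/

set_option autoImplicit false
set_option linter.unusedSectionVars false

namespace Vale.Agent.P331.H888

open Finset Vale.Agent.P331.H489 Vale.Agent.P331.H250 Vale.Agent.P331.H619

/-- pushing labels forward, the map may depend on the element -/
theorem EX_push_dep {E L C : Type*} [Fintype E] [DecidableEq E] [Fintype L] [DecidableEq L]
    [Fintype C] [DecidableEq C] (f : E → L → C) (w : E → L → ℝ) (F : (E → C) → ℝ) :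
    EX w (fun ω => F (fun e => f e (ω e))) = EX (fun e c => ∑ l with f e l = c, w e l) F := by
  unfold EX
  have h : ∀ κ : E → C, (∏ e, ∑ l with f e l = κ e, w e l) =
      ∑ ω : E → L with (fun e => f e (ω e)) = κ, ∏ e, w e (ω e) := by
    intro κ
    rw [Finset.prod_univ_sum]
    refine sum_congr ?_ fun _ _ => rfl
    ext ω
    simp only [Fintype.mem_piFinset, mem_filter, mem_univ, true_and]
    exact funext_iff.symm
  simp only [h, sum_mul]
  rw [← sum_fiberwise_of_maps_to (s := univ) (t := univ)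
    (g := fun ω : E → L => (fun e => f e (ω e))) (fun _ _ => mem_univ _)]
  refine sum_congr rfl fun κ _ => sum_congr rfl fun ω hω => ?_
  rw [(mem_filter.1 hω).2]

open scoped Classical in
/-- the thinning of 316 is the thinning of 250 -/
theorem thin_eq_TH {E : Type} [Fintype E] [inst : DecidableEq E] (τ : ℝ) (S : Finset E)
    (F : Finset E → ℝ) : H316.thin τ S F = TH (fun _ => τ) S F := by
  obtain rfl : inst = fun a b => Classical.propDecidable (a = b) := Subsingleton.elim _ _
  have h := EX_push_dep (fun (e : E) (b : Bool) => decide (e ∈ S) && b)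
    (fun _ => H316.tw τ) (fun b => F (tset b))
  have h1 : H316.thin τ S F = EX (fun _ : E => H316.tw τ)
      (fun ω => F (tset fun e => decide (e ∈ S) && ω e)) := by
    unfold H316.thin EX
    refine sum_congr rfl fun c _ => ?_
    have h2 : (S.filter fun e => c e = true) = tset fun e => decide (e ∈ S) && c e := by
      ext e
      simp [mem_tset]
    exact congrArg (fun X => (∏ e, H316.tw τ (c e)) * F X) h2
  rw [h1]
  refine h.trans ?_
  unfold TH
  refine EX_congr (fun e b => ?_) fun _ => rfl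
  rw [sum_filter, Fintype.sum_bool]
  by_cases he : e ∈ S
  · cases b <;> simp [bw, he, H316.tw]
  · cases b <;> simp [bw, he, H316.tw]

theorem ind_eq_ic (P : Prop) : H316.ind P = ic P := rfl

theorem rowMK : H316.RowMK := by
  classical
  intro E _ D g n t e lam zet lam' zet' kap hg0 hg hn0 hn ht0 ht1 hlam hzet hlam' hzet' R I A hBB
  have g1 : 0 < 1 - g := by linarith
  have g2 : 0 < 1 - 2 * g := by linarith
  have hid : n * (1 - g) / (1 - g) = n := mul_div_cancel_right₀ _ g1.ne'
  unfold H316.BB H316.bb H316.fl at hBB ⊢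
  simp only [thin_eq_TH, ind_eq_ic] at hBB ⊢
  have hT := transfer R (γ := g) (ν := n * (1 - g)) hg0 (by linarith)
    (mul_nonneg hn0 g1.le) hn
    (fun Y G N => ic (e < H316.psi D t I ((Y ∪ G) ∪ N)))
    (fun _ _ _ => ic_nonneg _) (fun Y => Y ⊆ A ∧ Y.card ≤ kap)
    (fun G => ∃ Y ⊆ A, Y.card ≤ kap ∧
      TH (fun _ => n) (R \ G) (fun N => ic (e < H316.psi D t I ((Y ∪ G) ∪ N))) ≤ lam)
    hlam hlam' hzet' ?_ (τ := zet) ?_
  · refine le_trans (le_of_eq ?_) hT
    refine TH_congr (fun _ _ => rfl) fun H _ => ?_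
    refine ic_congr (not_congr ?_)
    constructor
    · intro h
      refine h.trans (le_of_eq (TH_congr (fun _ _ => rfl) fun G _ => ic_congr ?_))
      constructor
      · rintro ⟨Y, h1, h2, h3⟩
        exact ⟨Y, ⟨h1, h2⟩, h3⟩
      · rintro ⟨Y, ⟨h1, h2⟩, h3⟩
        exact ⟨Y, h1, h2, h3⟩
    · intro h
      refine h.trans (le_of_eq (TH_congr (fun _ _ => rfl) fun G _ => ic_congr ?_))
      constructor
      · rintro ⟨Y, ⟨h1, h2⟩, h3⟩
        exact ⟨Y, h1, h2, h3⟩
      · rintro ⟨Y, h1, h2, h3⟩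
        exact ⟨Y, ⟨h1, h2⟩, h3⟩
  · rintro G _ ⟨Y, h1, h2, h3⟩
    rw [hid]
    exact ⟨Y, ⟨h1, h2⟩, h3⟩
  · have h1 : (fun G => ic (¬ ∃ Y ⊆ A, Y.card ≤ kap ∧
      TH (fun _ => n) (R \ G) (fun N => ic (e < H316.psi D t I ((Y ∪ G) ∪ N))) ≤ lam)) =
      fun G => (1 : ℝ) - ic (∃ Y ⊆ A, Y.card ≤ kap ∧
      TH (fun _ => n) (R \ G) (fun N => ic (e < H316.psi D t I ((Y ∪ G) ∪ N))) ≤ lam) :=
      funext fun G => ic_not _
    rw [h1, TH_sub, TH_const]
    linarith

end Vale.Agent.P331.H888
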